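import Vale.Agent.P183.R2.H668.KW.Spec

set_option autoImplicit false

/-!
Row A1 of `P183.R2.H668.KW`: counting independent sets of a locally dense relation.
-/

namespace Vale.Agent.P183.R2.H442

open Finset
open Vale.Agent.P183.R2.H668.KW

/-- Independent subsets. -/
private def ind {V : Type} [DecidableEq V] (H : V → V → Prop) [DecidableRel H] (B : Finset V)
    (d : ℕ) : Finset (Finset V) :=
  (B.powersetCard d).filter (fun I => ∀ x ∈ I, ∀ y ∈ I, x ≠ y → ¬ H x y)

private lemma mem_ind {V : Type} [DecidableEq V] {H : V → V → Prop} [DecidableRel H]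
    {B : Finset V} {d : ℕ} {I : Finset V} :
    I ∈ ind H B d ↔ (I ⊆ B ∧ I.card = d) ∧ ∀ x ∈ I, ∀ y ∈ I, x ≠ y → ¬ H x y := by
  unfold ind
  rw [mem_filter, mem_powersetCard]

private lemma split {V : Type} [DecidableEq V] {H : V → V → Prop} [DecidableRel H]
    {B : Finset V} {d : ℕ} {x : V} (hx : x ∈ B) :
    (ind H B (d + 1)).card ≤ (ind H (B.erase x) (d + 1)).card +
      (ind H ((B.erase x).filter (fun y => ¬ H x y)) d).card := by
  have h1 := card_filter_add_card_filter_not (s := ind H B (d + 1)) (fun I => x ∈ I)
  have h2 : ((ind H B (d + 1)).filter (fun I => ¬ x ∈ I)).card ≤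
      (ind H (B.erase x) (d + 1)).card := by
    refine card_le_card fun I hI => ?_
    rw [mem_filter, mem_ind] at hI
    rw [mem_ind]
    exact ⟨⟨fun y hy => mem_erase.2 ⟨fun h => hI.2 (h ▸ hy), hI.1.1.1 hy⟩, hI.1.1.2⟩, hI.1.2⟩
  have h3 : ((ind H B (d + 1)).filter (fun I => x ∈ I)).card ≤
      (ind H ((B.erase x).filter (fun y => ¬ H x y)) d).card := by
    refine card_le_card_of_injOn (fun I => I.erase x) (fun I hI => ?_) (fun I hI J hJ h => ?_)
    · rw [mem_coe, mem_filter, mem_ind] at hI
      obtain ⟨⟨⟨h4, h5⟩, h6⟩, h7⟩ := hI
      rw [mem_coe, mem_ind]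
      refine ⟨⟨fun y hy => ?_, ?_⟩, fun y hy z hz hyz => ?_⟩
      · have hy1 := mem_erase.1 hy
        rw [mem_filter, mem_erase]
        exact ⟨⟨hy1.1, h4 hy1.2⟩, h6 x h7 y hy1.2 (Ne.symm hy1.1)⟩
      · show (I.erase x).card = d
        rw [card_erase_of_mem h7, h5]
        rfl
      · exact h6 y (mem_of_mem_erase hy) z (mem_of_mem_erase hz) hyz
    · have h8 : I.erase x = J.erase x := h
      have h9 : x ∈ I := (mem_filter.1 (mem_coe.1 hI)).2
      have h10 : x ∈ J := (mem_filter.1 (mem_coe.1 hJ)).2
      rw [← insert_erase h9, ← insert_erase h10, h8]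
  omega

private lemma main {V : Type} [DecidableEq V] {H : V → V → Prop} [DecidableRel H] {β : ℝ} {R : ℕ}
    (h0 : 0 ≤ β) (h1 : β ≤ 1) : ∀ (m : ℕ) (B : Finset V), B.card = m →
    (∀ B' ⊆ B, R < B'.card → ∃ x ∈ B', β * B'.card ≤ ((B'.filter (H x)).card : ℝ)) →
    ∀ q d : ℕ, (1 - β) ^ q * B.card ≤ (R : ℝ) →
    (ind H B d).card ≤ ∑ s ∈ range (q + 1), B.card.choose s * R.choose (d - s) := by
  intro m
  induction m using Nat.strong_induction_on with
  | _ m ih =>
    intro B hB hd q d hq
    rcases le_or_gt B.card R with hR | hR
    · calc (ind H B d).card ≤ (B.powersetCard d).card := card_filter_le _ _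
        _ = B.card.choose d := card_powersetCard _ _
        _ ≤ R.choose d := Nat.choose_le_choose _ hR
        _ = B.card.choose 0 * R.choose (d - 0) := by simp
        _ ≤ _ := single_le_sum (f := fun s => B.card.choose s * R.choose (d - s))
              (fun _ _ => Nat.zero_le _) (mem_range.2 (Nat.succ_pos _))
    · rcases q with _ | q
      · exfalso
        rw [pow_zero, one_mul] at hq
        have : B.card ≤ R := by exact_mod_cast hq
        omega
      · rcases d with _ | d
        · calc (ind H B 0).card ≤ (B.powersetCard 0).card := card_filter_le _ _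
            _ = B.card.choose 0 * R.choose (0 - 0) := by simp
            _ ≤ _ := single_le_sum (f := fun s => B.card.choose s * R.choose (0 - s))
                  (fun _ _ => Nat.zero_le _) (mem_range.2 (Nat.succ_pos _))
        · obtain ⟨x, hx, hx'⟩ := hd B Subset.rfl hR
          have hb : (B.erase x).card + 1 = B.card := card_erase_add_one hx
          set B' := (B.erase x).filter (fun y => ¬ H x y) with hB'
          have hsub : B' ⊆ B.erase x := filter_subset _ _
          have hcard : B'.card ≤ (B.erase x).card := card_le_card hsub
          have hsum : B'.card + (B.filter (H x)).card ≤ B.card := by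
            have h2 : B' ⊆ B.filter (fun y => ¬ H x y) := by
              intro y hy
              rw [hB', mem_filter, mem_erase] at hy
              exact mem_filter.2 ⟨hy.1.2, hy.2⟩
            have h3 := card_filter_add_card_filter_not (s := B) (H x)
            have h4 := card_le_card h2
            omega
          have hpos : 0 ≤ 1 - β := by linarith
          have e1 : (ind H (B.erase x) (d + 1)).card ≤
              ∑ s ∈ range (q + 1 + 1), (B.erase x).card.choose s * R.choose (d + 1 - s) := by
            refine ih (B.erase x).card (by omega) (B.erase x) rfl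
              (fun C hC hC' => hd C (hC.trans (erase_subset _ _)) hC') (q + 1) (d + 1) ?_
            refine le_trans ?_ hq
            have : ((B.erase x).card : ℝ) ≤ B.card := by exact_mod_cast (by omega)
            exact mul_le_mul_of_nonneg_left this (pow_nonneg hpos _)
          have e2 : (ind H B' d).card ≤
              ∑ s ∈ range (q + 1), B'.card.choose s * R.choose (d - s) := by
            refine ih B'.card (by omega) B' rfl
              (fun C hC hC' => hd C (hC.trans (hsub.trans (erase_subset _ _))) hC') q d ?_
            refine le_trans ?_ hq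
            have h5 : (B'.card : ℝ) ≤ (1 - β) * B.card := by
              have : (B'.card : ℝ) + (B.filter (H x)).card ≤ B.card := by exact_mod_cast hsum
              linarith
            rw [pow_succ, mul_assoc]
            exact mul_le_mul_of_nonneg_left h5 (pow_nonneg hpos _)
          refine (split hx).trans ((Nat.add_le_add e1 e2).trans ?_)
          rw [sum_range_succ' (fun s => (B.erase x).card.choose s * R.choose (d + 1 - s)),
            sum_range_succ' (fun s => B.card.choose s * R.choose (d + 1 - s))]
          have e3 : ∑ s ∈ range (q + 1), B'.card.choose s * R.choose (d - s) ≤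
              ∑ s ∈ range (q + 1), (B.erase x).card.choose s * R.choose (d + 1 - (s + 1)) := by
            refine sum_le_sum fun s _ => ?_
            rw [Nat.add_sub_add_right]
            exact Nat.mul_le_mul_right _ (Nat.choose_le_choose _ hcard)
          have e4 : ∑ s ∈ range (q + 1), B.card.choose (s + 1) * R.choose (d + 1 - (s + 1)) =
              ∑ s ∈ range (q + 1), (B.erase x).card.choose s * R.choose (d + 1 - (s + 1)) +
              ∑ s ∈ range (q + 1), (B.erase x).card.choose (s + 1) *
                R.choose (d + 1 - (s + 1)) := by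
            rw [← sum_add_distrib]
            refine sum_congr rfl fun s _ => ?_
            rw [← hb, Nat.choose_succ_succ, add_mul]
          rw [e4]
          simp only [Nat.choose_zero_right]
          omega

theorem rowA1 : StA1 := by
  intro V _ H _ _ β R h0 h1 B hd q d hq
  exact main h0 h1 B.card B rfl hd q d hq

end Vale.Agent.P183.R2.H442
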